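import Vale.Agent.P290.R2.H596.Spec

/-! J6: the fibres of a proper family near a connected fibre are connected. -/

open Set Filter Metric
open scoped Topology

namespace Vale.Agent.P290.R2.H428

open Vale.Agent.P290 Vale.Agent.P290.K Vale.Agent.P290.H580 Vale.Agent.P290.H805

variable {T E : Type} [TopologicalSpace T] [TopologicalSpace E]

/-- the box over the open set `N` with the ball `B` in the trivialisation at `x` -/
def box (F : Family T E) (x : E) (N : Set T) (B : Set C2) : Set E :=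
  (F.triv x).source ∩ F.triv x ⁻¹' (N ×ˢ B)

theorem isOpen_box (F : Family T E) (x : E) {N : Set T} {B : Set C2} (hN : IsOpen N)
    (hB : IsOpen B) : IsOpen (box F x N B) :=
  (F.triv x).continuousOn.isOpen_inter_preimage (F.triv x).open_source (hN.prod hB)

theorem exists_box (F : Family T E) (x : E) {t₀ : T} (hx : F.p x = t₀) :
    ∃ (N : Set T) (r : ℝ), IsOpen N ∧ t₀ ∈ N ∧ 0 < r ∧
      N ×ˢ ball (F.triv x x).2 r ⊆ (F.triv x).target := by
  have h1 : (t₀, (F.triv x x).2) ∈ (F.triv x).target := by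
    have h2 := (F.triv x).map_source (F.mem x)
    rw [F.mk_eq x (F.mem x), hx] at h2
    exact h2
  obtain ⟨N, hN, B, hB, hNB⟩ := mem_nhds_prod_iff.1 ((F.triv x).open_target.mem_nhds h1)
  obtain ⟨N', hN', hN'o, hN't⟩ := mem_nhds_iff.1 hN
  obtain ⟨r, hr, hrB⟩ := Metric.mem_nhds_iff.1 hB
  exact ⟨N', r, hN'o, hN't, hr, (prod_mono hN' hrB).trans hNB⟩

theorem mem_box (F : Family T E) (x : E) {t₀ : T} (hx : F.p x = t₀) {N : Set T} {r : ℝ}
    (hN : t₀ ∈ N) (hr : 0 < r) : x ∈ box F x N (ball (F.triv x x).2 r) := by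
  refine ⟨F.mem x, ?_⟩
  rw [mem_preimage, F.mk_eq x (F.mem x), hx]
  exact ⟨hN, mem_ball_self hr⟩

/-- the points of a box over `t` -/
theorem box_inter (F : Family T E) (x : E) {N : Set T} {B : Set C2} {t : T} (ht : t ∈ N)
    (h : N ×ˢ B ⊆ (F.triv x).target) :
    box F x N B ∩ F.p ⁻¹' {t} = (fun v => (F.triv x).symm (t, v)) '' B := by
  ext y
  constructor
  · rintro ⟨⟨h1, h2⟩, h3⟩
    have h3' : F.p y = t := h3
    have h4 : F.triv x y = (t, (F.triv x y).2) := by rw [F.mk_eq x h1, h3']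
    refine ⟨(F.triv x y).2, h2.2, ?_⟩
    show (F.triv x).symm (t, (F.triv x y).2) = y
    rw [← h4, (F.triv x).left_inv h1]
  · rintro ⟨v, hv, rfl⟩
    have h1 : (t, v) ∈ (F.triv x).target := h ⟨ht, hv⟩
    refine ⟨⟨(F.triv x).map_target h1, ?_⟩, F.p_symm x h1⟩
    rw [mem_preimage, (F.triv x).right_inv h1]
    exact ⟨ht, hv⟩

/-- the part of a box over `t` is preconnected -/
theorem isPreconnected_box (F : Family T E) (x : E) {N : Set T} {a : C2} {r : ℝ} {t : T}
    (ht : t ∈ N) (h : N ×ˢ ball a r ⊆ (F.triv x).target) :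
    IsPreconnected (box F x N (ball a r) ∩ F.p ⁻¹' {t}) := by
  rw [box_inter F x ht h]
  refine (convex_ball a r).isPreconnected.image _ ?_
  exact (F.triv x).continuousOn_symm.comp (Continuous.prodMk_right t).continuousOn
    fun v hv => h ⟨ht, hv⟩

/-- an open set which meets the fibre over `t₀` meets the fibres over nearby points -/
theorem eventually_meets (F : Family T E) {t₀ : T} {O : Set E} (hO : IsOpen O) {y : E}
    (hy : y ∈ O) (hyt : F.p y = t₀) : ∀ᶠ t in 𝓝 t₀, (O ∩ F.p ⁻¹' {t}).Nonempty := by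
  have h1 : F.triv y y = (t₀, (F.triv y y).2) := by rw [F.mk_eq y (F.mem y), hyt]
  have h2 : (t₀, (F.triv y y).2) ∈ (F.triv y).target := by
    rw [← h1]; exact (F.triv y).map_source (F.mem y)
  have h3 : (F.triv y).symm (t₀, (F.triv y y).2) = y := by
    rw [← h1, (F.triv y).left_inv (F.mem y)]
  have h4 : ContinuousAt (fun t : T => ((t, (F.triv y y).2) : T × C2)) t₀ := by fun_prop
  have h5 : ContinuousAt (fun t : T => (F.triv y).symm (t, (F.triv y y).2)) t₀ :=
    ContinuousAt.comp (g := (F.triv y).symm) (f := fun t : T => ((t, (F.triv y y).2) : T × C2))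
      ((F.triv y).continuousAt_symm h2) h4
  have h6 : ∀ᶠ t in 𝓝 t₀, (F.triv y).symm (t, (F.triv y y).2) ∈ O :=
    h5.eventually (hO.mem_nhds (by
      show (F.triv y).symm (t₀, (F.triv y y).2) ∈ O
      rw [h3]
      exact hy))
  have h7 : ∀ᶠ t in 𝓝 t₀, (t, (F.triv y y).2) ∈ (F.triv y).target :=
    h4.eventually ((F.triv y).open_target.mem_nhds h2)
  filter_upwards [h6, h7] with t h8 h9
  exact ⟨_, h8, F.p_symm y h9⟩

theorem range_val (F : Family T E) (t : T) : range (Fib.val : Fib F t → E) = F.p ⁻¹' {t} := by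
  ext y
  constructor
  · rintro ⟨x, rfl⟩
    exact x.prop
  · intro h
    exact ⟨⟨y, h⟩, rfl⟩

/-- in a cover of a preconnected set by finitely many open sets which meet it, any two of the sets
are joined by a chain of sets which meet inside the set -/
theorem chain_of_preconnected {α ι : Type*} [TopologicalSpace α] {S : Set α}
    (hS : IsPreconnected S) {U : ι → Set α} (hU : ∀ i, IsOpen (U i)) (hcov : S ⊆ ⋃ i, U i)
    (hne : ∀ i, (S ∩ U i).Nonempty) (i j : ι) :
    Relation.ReflTransGen (fun i j => (S ∩ (U i ∩ U j)).Nonempty) i j := by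
  by_contra hij
  set A : Set ι := {k | Relation.ReflTransGen (fun i j => (S ∩ (U i ∩ U j)).Nonempty) i k} with hA
  have hi : i ∈ A := Relation.ReflTransGen.refl
  have hP : IsOpen (⋃ k ∈ A, U k) := isOpen_biUnion fun k _ => hU k
  have hQ : IsOpen (⋃ k ∈ Aᶜ, U k) := isOpen_biUnion fun k _ => hU k
  obtain ⟨y, hyS, hy1, hy2⟩ := hS _ _ hP hQ (by
      intro y hy
      obtain ⟨k, hk⟩ := mem_iUnion.1 (hcov hy)
      by_cases hkA : k ∈ A
      · exact Or.inl (mem_biUnion hkA hk)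
      · exact Or.inr (mem_biUnion (show k ∈ Aᶜ from hkA) hk))
    (by
      obtain ⟨y, hy, hyi⟩ := hne i
      exact ⟨y, hy, mem_biUnion hi hyi⟩)
    (by
      obtain ⟨y, hy, hyj⟩ := hne j
      exact ⟨y, hy, mem_biUnion (show j ∈ Aᶜ from hij) hyj⟩)
  obtain ⟨k, hk, hyk⟩ := mem_iUnion₂.1 hy1
  obtain ⟨l, hl, hyl⟩ := mem_iUnion₂.1 hy2
  exact hl (Relation.ReflTransGen.tail hk ⟨y, hyS, hyk, hyl⟩)

/-- **J6**: the fibres near a connected fibre of a proper family are connected -/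
theorem conn : ∀ (T E : Type) [TopologicalSpace T] [TopologicalSpace E] (F : Family T E),
    IsProperMap F.p → ∀ t₀ : T, ConnectedSpace (Fib F t₀) →
      ∀ᶠ t in 𝓝 t₀, ConnectedSpace (Fib F t) := by
  intro T E _ _ F hp t₀ hconn
  choose N r hNo hNt hr hsub using fun x : {x : E // F.p x = t₀} => exists_box F x.1 x.2
  set U : {x : E // F.p x = t₀} → Set E := fun x => box F x.1 (N x) (ball (F.triv x.1 x.1).2 (r x))
    with hUdef
  have hUo : ∀ x, IsOpen (U x) := fun x => isOpen_box F x.1 (hNo x) isOpen_ball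
  have hUm : ∀ x, x.1 ∈ U x := fun x => mem_box F x.1 x.2 (hNt x) (hr x)
  have hcpt : IsCompact (F.p ⁻¹' {t₀}) := hp.isCompact_preimage isCompact_singleton
  obtain ⟨s, hs⟩ := hcpt.elim_finite_subcover U hUo (fun y hy => mem_iUnion.2 ⟨⟨y, hy⟩, hUm _⟩)
  have hcov : F.p ⁻¹' {t₀} ⊆ ⋃ i : s, U i.1 := by
    intro y hy
    obtain ⟨i, hi, hyi⟩ := mem_iUnion₂.1 (hs hy)
    exact mem_iUnion.2 ⟨⟨i, hi⟩, hyi⟩
  have hpre : IsPreconnected (F.p ⁻¹' {t₀}) := by
    rw [← range_val F t₀]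
    exact isPreconnected_range continuous_val
  have hchain := chain_of_preconnected hpre (U := fun i : s => U i.1) (fun i => hUo i.1) hcov
    (fun i => ⟨i.1.1, i.1.2, hUm i.1⟩)
  obtain ⟨x₀⟩ : Nonempty (Fib F t₀) := hconn.toNonempty
  obtain ⟨i₀, -⟩ := mem_iUnion.1 (hcov (show x₀.val ∈ F.p ⁻¹' {t₀} from x₀.prop))
  -- the conditions on `t`
  have e1 : ∀ᶠ t in 𝓝 t₀, ∀ i : s, t ∈ N i.1 :=
    eventually_all.2 fun i => (hNo i.1).mem_nhds (hNt i.1)
  have e2 : ∀ᶠ t in 𝓝 t₀, ∀ i j : s, (F.p ⁻¹' {t₀} ∩ (U i.1 ∩ U j.1)).Nonempty →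
      ((U i.1 ∩ U j.1) ∩ F.p ⁻¹' {t}).Nonempty := by
    refine eventually_all.2 fun i => eventually_all.2 fun j => ?_
    by_cases h : (F.p ⁻¹' {t₀} ∩ (U i.1 ∩ U j.1)).Nonempty
    · obtain ⟨y, hy1, hy2⟩ := h
      filter_upwards [eventually_meets F ((hUo i.1).inter (hUo j.1)) hy2 hy1] with t ht _
      exact ht
    · exact Eventually.of_forall fun _ h' => absurd h' h
  have e3 : ∀ᶠ t in 𝓝 t₀, F.p ⁻¹' {t} ⊆ ⋃ i : s, U i.1 := by
    have h1 : IsClosed (F.p '' (⋃ i : s, U i.1)ᶜ) :=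
      hp.isClosedMap _ (isOpen_iUnion fun i : s => hUo i.1).isClosed_compl
    have h2 : t₀ ∈ (F.p '' (⋃ i : s, U i.1)ᶜ)ᶜ := by
      rintro ⟨y, hy, hyt⟩
      exact hy (hcov hyt)
    filter_upwards [h1.isOpen_compl.mem_nhds h2] with t ht y hy
    by_contra hy'
    exact ht ⟨y, hy', hy⟩
  filter_upwards [e1, e2, e3] with t h1 h2 h3
  have hfib : F.p ⁻¹' {t} = ⋃ i : s, (U i.1 ∩ F.p ⁻¹' {t}) := by
    rw [← iUnion_inter]
    exact (inter_eq_right.2 h3).symm
  have hprt : IsPreconnected (F.p ⁻¹' {t}) := by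
    rw [hfib]
    refine IsPreconnected.iUnion_of_reflTransGen
      (fun i => isPreconnected_box F i.1.1 (h1 i) (hsub i.1)) fun i j => ?_
    refine Relation.ReflTransGen.mono (fun k l hkl => ?_) _ _ (hchain i j)
    obtain ⟨y, ⟨hy1, hy2⟩, hy3⟩ := h2 k l hkl
    exact ⟨y, ⟨hy1, hy3⟩, ⟨hy2, hy3⟩⟩
  have hpc : PreconnectedSpace (Fib F t) := by
    refine ⟨isInducing_val.isPreconnected_image.1 ?_⟩
    rw [image_univ, range_val F t]
    exact hprt
  have hmem : (t, (F.triv i₀.1.1 i₀.1.1).2) ∈ (F.triv i₀.1.1).target :=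
    hsub i₀.1 ⟨h1 i₀, mem_ball_self (hr i₀.1)⟩
  exact { toPreconnectedSpace := hpc
          toNonempty := ⟨⟨_, F.p_symm i₀.1.1 hmem⟩⟩ }

end Vale.Agent.P290.R2.H428
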